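import Mathlib
import Vale.Agent.P079.Defs
import Vale.Agent.P079.Norms

namespace Vale.Agent.Results.P079.SuperRefl

open Vale.Agent.P079

universe u v

theorem result (X : Type u) [NormedAddCommGroup X] [NormedSpace ℝ X] [CompleteSpace X]
    (hX : IsReflexiveSpace X) (Y : Type v) [NormedAddCommGroup Y] [NormedSpace ℝ Y]
    (e : X ≃L[ℝ] Y)
    (hY : UniformConvexSpace Y ∨ IsAUS Y ∨ ∃ r : ℝ, r < 1 ∧ AsympModulusLe Y 1 r) :
    HasFPP X := by
  rcases hY with h | h | ⟨r, hr, h⟩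
  · obtain ⟨r, hr, h⟩ := modulus_of_uc (Y := Y)
    exact hasFPP_of_modulus hX e hr h
  · obtain ⟨r, hr, h⟩ := modulus_of_aus h
    exact hasFPP_of_modulus hX e hr h
  · exact hasFPP_of_modulus hX e hr h

end Vale.Agent.Results.P079.SuperRefl
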